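import Vale.Agent.P207.N4.Dim
import Vale.Agent.P207.N6.H547.AffLemA
import Vale.Agent.P207.N4.H751.SQ1

/-!
# P207, Theorem H: the S-bundle over the picture `Pic` (58): `P.RateP → P.SB`
-/

open Set Filter Topology Metric
open scoped ContDiff

noncomputable section

namespace Vale.Agent.P207.N4.W.H751

open Vale.Agent.P207.N4.H751

open Vale.Agent.P207.N3 Vale.Agent.P207.N3.Ten Vale.Agent.P207.N4.Ten Vale.Agent.P207.H751
open Vale.Agent.P207.H686

variable [Dim]

variable {Γ X B : Type} [Group Γ] [MetricSpace X] [ProperSpace X] [MulAction Γ X]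
  [IsIsometricSMul Γ X] [TopologicalSpace B] [CompactSpace B] [T2Space B] [MulAction Γ B]
  [ContinuousConstSMul Γ B]

variable {L : Leaf Γ X B}

/-- the affine charts of 58 as affine charts in the form `AffIn` -/
def toIn (F : Aff L) : AffIn L where
  pt := F.pt
  ac := F.ch
  ac_pt := F.ch_pt
  pt_ac := F.pt_ch
  pt_ne := F.pt_ne
  pt_zero := F.pt_zero
  pt_smul := F.pt_smul
  pt_cont := F.pt_cont
  ac_cont := F.ch_cont
  aff x y h := by
    refine ⟨F.lin x y, fun p => ?_⟩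
    have h1 : ∀ q, F.ch y (F.pt x q) = F.lin x y (q - F.ch x (L.ep y)) := fun q => by
      rw [← F.leaf x y h q, F.ch_pt]
    rw [h1, h1, map_sub, map_sub, map_zero]
    abel
  chi := F.dsc
  chi_mem x p hp := F.dsc_mem (F.closedBall_dT x (ball_subset_closedBall hp))
  e_chi x p hp := F.e_dsc (F.closedBall_dT x (ball_subset_closedBall hp))
  chi_jc := F.dsc_jc.mono (isOpen_univ.prod isOpen_ball) fun p hp =>
    F.closedBall_dT p.1 (ball_subset_closedBall hp.2)
  chi_inv x p hp := F.der_dsc_inv (F.closedBall_dT x (ball_subset_closedBall hp))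

theorem toIn_Nh (F : Aff L) (T : Tens L) (x : X) {q : E2} (hq : q ∈ closedBall (0 : E2) 2) :
    (toIn F).Nh T x q = F.Na T x q := by
  unfold AffIn.Nh AffIn.dp Aff.Na
  show (fderiv ℝ (F.dsc x) q).inverse ∘L T.N x (F.dsc x q) ∘L
    ContinuousLinearMap.adjoint ((fderiv ℝ (F.dsc x) q).inverse) = _
  rw [F.der_dsc_inverse (F.closedBall_dT x hq)]
  rfl

section PicS

variable [MeasurableSpace B] [BorelSpace B] {V : Type}
  [NormedAddCommGroup V] [NormedSpace ℝ V] [FiniteDimensional ℝ V] (P : Pic L V)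

/-- the step -/
def stp : ℝ := max 1 P.Ra.T

theorem stp_pos : 0 < stp P := lt_max_of_lt_left one_pos

theorem one_le_stp : 1 ≤ stp P := le_max_left _ _

theorem le_stp : P.Ra.T ≤ stp P := le_max_right _ _

/-- the flow at the time `T0` -/
def rin (hR : P.RateP) (T0 : ℝ) (hT0 : 0 < T0) (hT : P.Ra.T ≤ T0) : RateQ (toIn P.Af) where
  T0 := T0
  T0_pos := hT0
  ra := P.Ra.a
  rb := P.Ra.b
  ra_pos := P.Ra.a_pos
  ra_le := P.Ra.a_le_b
  pinch := P.Ra.pinch
  P := P.Af.P T0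
  flow := P.Af.flow T0
  lo x q := (hR T0 hT x q).1
  hi x q := (hR T0 hT x q).2

/-- **the zoom data of the picture** -/
def pzd (hR : P.RateP) : ZDk 4 E2 (Fm E2) X := zdk (rin P hR (stp P) (stp_pos P) (le_stp P)) P.S.T

theorem pzd_h2 (hR : P.RateP) : (pzd P hR).lam ^ 2 * (pzd P hR).mu < 1 :=
  zdk_h2 (rin P hR (stp P) (stp_pos P) (le_stp P)) P.S.T

theorem pzd_h4 (hR : P.RateP) : (pzd P hR).lam ^ 4 * (pzd P hR).Lam < 1 :=
  zdk_h4 (rin P hR (stp P) (stp_pos P) (le_stp P)) P.S.T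

theorem pzd_h6 (hR : P.RateP) : (pzd P hR).lam ^ 6 * ((pzd P hR).Lam * (pzd P hR).mu) < 1 :=
  zdk_h6 (rin P hR (stp P) (stp_pos P) (le_stp P)) P.S.T

theorem pr_eq (x : X) {q : E2} (hq : q ∈ closedBall (0 : E2) 2) (s : E2 →L[ℝ] E2) :
    (toIn P.Af).Nf P.S.T x q (fo s) = Pic.pr (P.Na x q) s := by
  unfold AffIn.Nf
  rw [toIn_Nh _ _ _ hq, prL_fo]
  rfl

theorem mem_Sm_iff (hR : P.RateP) (x : X) (s : E2 →L[ℝ] E2) :
    s ∈ P.Sm x ↔ fo s ∈ (pzd P hR).Sm x := by
  have h1 : ∀ q ∈ ball (0 : E2) 1, (toIn P.Af).Nf P.S.T x q (fo s) = Pic.pr (P.Na x q) s :=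
    fun q hq => pr_eq P x (ball_subset_closedBall (ball_subset_ball (by norm_num) hq)) s
  constructor
  · intro h
    have h2 : ContDiffOn ℝ ∞ (fun q => Pic.pr (P.Na x q) s) (ball 0 1) := h
    exact h2.congr h1
  · intro h
    have h2 : ContDiffOn ℝ ∞ (fun q => (toIn P.Af).Nf P.S.T x q (fo s)) (ball 0 1) := h
    exact h2.congr fun q hq => (h1 q hq).symm

/-- invariance for pairs whose discs meet -/
theorem sm_pair (hR : P.RateP) {x y : X} (h : L.em x = L.em y) {A : E2 ≃L[ℝ] E2} {c : E2}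
    (hA : ∀ q, P.Af.ch y (P.Af.pt x q) = A (q - c)) (hc : ‖c‖ < 1) (s : E2 →L[ℝ] E2) :
    s ∈ P.Sm x ↔ Pic.push A s ∈ P.Sm y := by
  set z : Pr L := ⟨(x, y), h⟩ with hz
  set r := rin P hR (stp P) (stp_pos P) (le_stp P) with hr
  have h1 : ∀ w, (toIn P.Af).al z w = c + A.symm w := by
    intro w
    show P.Af.ch x (P.Af.pt y w) = _
    have h2 := hA (c + A.symm w)
    rw [add_sub_cancel_left, A.apply_symm_apply] at h2
    have h3 : P.Af.pt y w = P.Af.pt x (c + A.symm w) := by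
      have h4 := P.Af.pt_ch y (P.Af.pt x (c + A.symm w)) (by rw [← h]; exact P.Af.pt_ne _ _)
      rw [h2] at h4
      exact h4
    rw [h3, P.Af.ch_pt]
  have h2 : (toIn P.Af).lin z = A.symm := by
    refine ContinuousLinearEquiv.ext (funext fun w => ?_)
    rw [(toIn P.Af).lin_sub, h1, h1, map_zero]
    abel
  have h3 := r.sm_pair P.S.T (z := z) (y₀ := 0) (by rw [norm_zero]; exact one_pos)
    (by rw [h1, map_zero, add_zero]; exact hc) (fo s)
  rw [h2, ContinuousLinearEquiv.symm_symm, ← fo_push] at h3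
  rw [mem_Sm_iff P hR x s, mem_Sm_iff P hR y]
  exact h3

theorem push_push (A A' : E2 ≃L[ℝ] E2) (s : E2 →L[ℝ] E2) :
    Pic.push A' (Pic.push A s) = Pic.push (A.trans A') s := by
  apply fo_inj
  show fo (pushO A' (pushO A s)) = fo (pushO (A.trans A') s)
  rw [fo_push, fo_push, fo_push, act_trans]

/-- **(SB)** -/
theorem sb (hR : P.RateP) : P.SB := by
  have h1 : ∀ t x s, s ∈ P.Sm x ↔ Pic.push (P.Af.P t x) s ∈ P.Sm (L.φ t x) := by
    intro t x s
    refine sm_pair P hR (L.em_φ t x).symm (A := P.Af.P t x) (c := 0) (fun q => ?_)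
      (by rw [norm_zero]; exact one_pos) s
    rw [← P.Af.flow t x q, P.Af.ch_pt, sub_zero]
  refine ⟨h1, ?_, ?_⟩
  · intro x y h s
    -- flow back until the disc contains `ep y`
    set c := P.Af.ch x (L.ep y) with hc
    obtain ⟨t, ht0, ht⟩ : ∃ t : ℝ, P.Ra.T ≤ t ∧ ‖c‖ < Real.exp (P.Ra.a * t) := by
      refine ⟨max (‖c‖ / P.Ra.a) P.Ra.T, le_max_right _ _, ?_⟩
      have h1 : P.Ra.a * (‖c‖ / P.Ra.a) ≤ P.Ra.a * max (‖c‖ / P.Ra.a) P.Ra.T :=
        mul_le_mul_of_nonneg_left (le_max_left _ _) P.Ra.a_pos.le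
      rw [mul_div_cancel₀ _ P.Ra.a_pos.ne'] at h1
      have h2 := Real.add_one_le_exp (P.Ra.a * max (‖c‖ / P.Ra.a) P.Ra.T)
      linarith
    set x' := L.φ (-t) x with hx'
    set A1 := P.Af.P (-t) x with hA1
    have e1 : ∀ q, P.Af.pt x' (A1 q) = P.Af.pt x q := P.Af.flow (-t) x
    have e2 : ∀ q, P.Af.P t x' (A1 q) = q := by
      intro q
      have h2 := P.Af.flow t x' (A1 q)
      have h3 : L.φ t x' = x := by rw [hx', ← L.φ_add, add_neg_cancel, L.φ_zero]
      rw [h3, e1] at h2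
      exact P.Af.pt_inj x h2
    have e3 : ‖A1 c‖ < 1 := by
      have h2 := (hR t ht0 x' (A1 c)).1
      rw [e2] at h2
      have h3 := Real.exp_pos (P.Ra.a * t)
      by_contra hcon
      have h4 : Real.exp (P.Ra.a * t) * 1 ≤ Real.exp (P.Ra.a * t) * ‖A1 c‖ :=
        mul_le_mul_of_nonneg_left (not_lt.1 hcon) h3.le
      linarith
    have hem : L.em x' = L.em y := by rw [hx', L.em_φ, h]
    have e4 : ∀ q, P.Af.ch y (P.Af.pt x' q) = (A1.symm.trans (P.Af.lin x y)) (q - A1 c) := by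
      intro q
      have h2 : P.Af.pt x' q = P.Af.pt x (A1.symm q) := by
        rw [← e1, A1.apply_symm_apply]
      have h3 : A1.symm (q - A1 c) = A1.symm q - c := by
        rw [map_sub, A1.symm_apply_apply]
      rw [h2, ← P.Af.leaf x y h, P.Af.ch_pt, ContinuousLinearEquiv.trans_apply, h3]
    have h5 := sm_pair P hR hem e4 e3 (Pic.push A1 s)
    rw [push_push] at h5
    have h6 : A1.trans (A1.symm.trans (P.Af.lin x y)) = P.Af.lin x y := by
      refine ContinuousLinearEquiv.ext (funext fun w => ?_)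
      simp
    rw [h6] at h5
    exact (h1 (-t) x s).trans h5
  · intro x s O hO hO1 hOn hs
    rw [mem_Sm_iff P hR]
    refine (pzd P hR).sm_max hO hO1 hOn ?_
    refine hs.congr fun q hq => ?_
    exact pr_eq P x (ball_subset_closedBall (ball_subset_ball (by norm_num) (hO1 hq))) s

end PicS

end Vale.Agent.P207.N4.W.H751
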